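import Vale.Agent.P154.AllRegular

/-!
# The three-state ferromagnetic Potts channel: the threshold on every regular tree, and on every
Galton-Watson tree when `λ ≤ 0.3536` (in particular every Poisson tree of mean at least `8`)
-/

namespace Vale.Agent.Results.P154.RegularAll

open Vale.Agent.P154

/-- `q = 3`, `0 ≤ λ ≤ 1`. On the `d`-ary tree, for every `d ≥ 2`, reconstruction occurs if and only
if `d λ² > 1`. On the Poisson tree of mean `d ≥ 8`, likewise. On the Galton-Watson tree of any
offspring law with mean `m` and finite second moment, likewise when `λ ≤ 0.3536`. -/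
theorem result (lam : ℝ) (h0 : 0 ≤ lam) (h1 : lam ≤ 1) :
    (∀ d : ℕ, 2 ≤ d →
      (Reconstruction 3 lam (regular d) ↔ 1 < (d : ℝ) * lam ^ 2) ∧
      (Nonreconstruction 3 lam (regular d) ↔ (d : ℝ) * lam ^ 2 ≤ 1)) ∧
    (∀ d : ℝ, 8 ≤ d →
      (Reconstruction 3 lam (poisson d) ↔ 1 < d * lam ^ 2) ∧
      (Nonreconstruction 3 lam (poisson d) ↔ d * lam ^ 2 ≤ 1)) ∧
    (lam ≤ 3536 / 10000 → ∀ off : ℕ → ℝ, (∀ k, 0 ≤ off k) → HasSum off 1 →
      ∀ m : ℝ, HasSum (fun k : ℕ => off k * k) m →
        Summable (fun k : ℕ => off k * (k : ℝ) ^ 2) →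
        (Reconstruction 3 lam off ↔ 1 < m * lam ^ 2) ∧
        (Nonreconstruction 3 lam off ↔ m * lam ^ 2 ≤ 1)) := by
  refine ⟨fun d hd => ?_, fun d hd => ?_, fun hL off hn hs m hm h2 => ?_⟩
  · have key := dichotomy (q := 3) (lam := lam) (off := regular d) (P := 1 < (d : ℝ) * lam ^ 2)
      (fun h => reconstruction_regular (by norm_num) (by norm_num; linarith) h1 h)
      (fun h => nonrec_all hd h0 (not_lt.1 h))
    rw [not_lt] at key; exact key
  · have key := dichotomy (q := 3) (lam := lam) (off := poisson d) (P := 1 < d * lam ^ 2)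
      (fun h => reconstruction_poisson (by norm_num) (by linarith) (by norm_num; linarith) h1 h)
      (fun h => nonrec_poisson8 hd h0 (not_lt.1 h))
    rw [not_lt] at key; exact key
  · have hoff : IsOff off := ⟨hn, hs⟩
    have key := dichotomy (q := 3) (lam := lam) (off := off) (P := 1 < m * lam ^ 2)
      (fun h => ?_) (fun h => nonrec_GW hoff hm h0 (by linarith) (not_lt.1 h))
    · rw [not_lt] at key; exact key
    · have h3 : Summable (fun k : ℕ => off k * ((k : ℝ) * (k - 1))) := by
        have := h2.sub hm.summable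
        refine this.congr (fun k => ?_)
        ring
      exact reconstruction_of_lt (by norm_num) (by norm_num; linarith) h1 hoff hm h3.hasSum h

end Vale.Agent.Results.P154.RegularAll
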