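import Vale.Agent.P154.Final6

/-!
# The three-state Potts channel: the Kesten-Stigum threshold is the reconstruction threshold on all
regular trees, and on all ferromagnetic and most antiferromagnetic Poisson trees
-/

namespace Vale.Agent.Results.P154.RegularThree

open Vale.Agent.P154

/-- `q = 3`. The Kesten-Stigum threshold `d λ² = 1` is the reconstruction threshold
* on the `d`-ary tree for every `d ≥ 2` and every admissible `λ` (both signs; in particular for
  proper `3`-colourings, `λ = -1/2`, of the `4`-ary tree, which is critical);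
* on the Poisson tree of mean `d` for every real `d > 0` when `λ ≥ -0.42`, and for every real
  `d ≥ 5.67` for both signs;
* on the Galton-Watson tree of any offspring law with finite second moment, if
  `-0.1562 ≤ λ ≤ 0.3536`. -/
theorem result (lam : ℝ) (h0 : -(1 / 2) ≤ lam) (h1 : lam ≤ 1) :
    (∀ d : ℕ, 2 ≤ d →
      (Reconstruction 3 lam (regular d) ↔ 1 < (d : ℝ) * lam ^ 2) ∧
      (Nonreconstruction 3 lam (regular d) ↔ (d : ℝ) * lam ^ 2 ≤ 1)) ∧
    (∀ d : ℝ, 0 < d → (-(42 / 100) ≤ lam ∨ 567 / 100 ≤ d) →
      (Reconstruction 3 lam (poisson d) ↔ 1 < d * lam ^ 2) ∧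
      (Nonreconstruction 3 lam (poisson d) ↔ d * lam ^ 2 ≤ 1)) ∧
    (-(1562 / 10000) ≤ lam → lam ≤ 3536 / 10000 →
      ∀ off : ℕ → ℝ, (∀ k, 0 ≤ off k) → HasSum off 1 →
      ∀ m : ℝ, HasSum (fun k : ℕ => off k * k) m →
        Summable (fun k : ℕ => off k * (k : ℝ) ^ 2) →
        (Reconstruction 3 lam off ↔ 1 < m * lam ^ 2) ∧
        (Nonreconstruction 3 lam off ↔ m * lam ^ 2 ≤ 1)) := by
  refine ⟨fun d hd => ?_, fun d hd hs => ?_, fun hl hL off hn hsum m hm h2 => ?_⟩
  · have key := dichotomy (q := 3) (lam := lam) (off := regular d) (P := 1 < (d : ℝ) * lam ^ 2)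
      (fun h => reconstruction_regular (by norm_num) (by norm_num; linarith) h1 h)
      (fun h => reg_three hd h0 (not_lt.1 h))
    rw [not_lt] at key; exact key
  · have key := dichotomy (q := 3) (lam := lam) (off := poisson d) (P := 1 < d * lam ^ 2)
      (fun h => reconstruction_poisson (by norm_num) (by linarith) (by norm_num; linarith) h1 h)
      (fun h => ?_)
    · rw [not_lt] at key; exact key
    · have hdl := not_lt.1 h
      rcases le_total 0 lam with hp | hp
      · exact pois_nonneg hp h1 hd.le hdl
      rcases hs with hs | hs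
      · exact pois_neg42 (by linarith) hp hd.le hdl
      · exact pois_neg42 (lam_ge_of (by norm_num) (by linarith) hdl) hp hd.le hdl
  · have hoff : IsOff off := ⟨hn, hsum⟩
    have key := dichotomy (q := 3) (lam := lam) (off := off) (P := 1 < m * lam ^ 2)
      (fun h => ?_) (fun h => ?_)
    · rw [not_lt] at key; exact key
    · have h3 : Summable (fun k : ℕ => off k * ((k : ℝ) * (k - 1))) := by
        have := h2.sub hm.summable
        refine this.congr (fun k => ?_)
        ring
      exact reconstruction_of_lt (by norm_num) (by norm_num; linarith) h1 hoff hm h3.hasSum h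
    · rcases le_total 0 lam with hp | hp
      · exact nonrec_GW hoff hm hp (by linarith) (not_lt.1 h)
      · exact nonrec_GW_neg hoff hm (by linarith) hp (not_lt.1 h)

end Vale.Agent.Results.P154.RegularThree
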