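import Vale.Agent.P154.Final8

/-!
# The three-state Potts channel: the Kesten-Stigum threshold is the reconstruction threshold
-/

namespace Vale.Agent.Results.P154.ThreeState

open Vale.Agent.P154

/-- `q = 3`, every admissible `λ ∈ [-1/2, 1]` (both signs), both tree models, every admissible
`d`: reconstruction if and only if `d λ² > 1`, and nonreconstruction if and only if `d λ² ≤ 1`.
The third part is the same statement for the Galton-Watson tree of any offspring law with finite
second moment, when `-0.1562 ≤ λ ≤ 0.3536`. -/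
theorem result (lam : ℝ) (h0 : -(1 / 2) ≤ lam) (h1 : lam ≤ 1) :
    (∀ d : ℕ, 2 ≤ d →
      (Reconstruction 3 lam (regular d) ↔ 1 < (d : ℝ) * lam ^ 2) ∧
      (Nonreconstruction 3 lam (regular d) ↔ (d : ℝ) * lam ^ 2 ≤ 1)) ∧
    (∀ d : ℝ, 0 < d →
      (Reconstruction 3 lam (poisson d) ↔ 1 < d * lam ^ 2) ∧
      (Nonreconstruction 3 lam (poisson d) ↔ d * lam ^ 2 ≤ 1)) ∧
    (-(1562 / 10000) ≤ lam → lam ≤ 3536 / 10000 →
      ∀ off : ℕ → ℝ, (∀ k, 0 ≤ off k) → HasSum off 1 →
      ∀ m : ℝ, HasSum (fun k : ℕ => off k * k) m →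
        Summable (fun k : ℕ => off k * (k : ℝ) ^ 2) →
        (Reconstruction 3 lam off ↔ 1 < m * lam ^ 2) ∧
        (Nonreconstruction 3 lam off ↔ m * lam ^ 2 ≤ 1)) := by
  refine ⟨fun d hd => ?_, fun d hd => ?_, fun hl hL off hn hsum m hm h2 => ?_⟩
  · have key := dichotomy (q := 3) (lam := lam) (off := regular d) (P := 1 < (d : ℝ) * lam ^ 2)
      (fun h => reconstruction_regular (by norm_num) (by norm_num; linarith) h1 h)
      (fun h => reg_three hd h0 (not_lt.1 h))
    rw [not_lt] at key; exact key
  · have key := dichotomy (q := 3) (lam := lam) (off := poisson d) (P := 1 < d * lam ^ 2)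
      (fun h => reconstruction_poisson (by norm_num) (by linarith) (by norm_num; linarith) h1 h)
      (fun h => pois_three h0 h1 hd.le (not_lt.1 h))
    rw [not_lt] at key; exact key
  · have hoff : IsOff off := ⟨hn, hsum⟩
    have key := dichotomy (q := 3) (lam := lam) (off := off) (P := 1 < m * lam ^ 2)
      (fun h => ?_) (fun h => ?_)
    · rw [not_lt] at key; exact key
    · have h3 : Summable (fun k : ℕ => off k * ((k : ℝ) * (k - 1))) := by
        have := h2.sub hm.summable
        refine this.congr (fun k => ?_)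
        ring
      exact reconstruction_of_lt (by norm_num) (by norm_num; linarith) h1 hoff hm h3.hasSum h
    · rcases le_total 0 lam with hp | hp
      · exact nonrec_GW hoff hm hp (by linarith) (not_lt.1 h)
      · exact nonrec_GW_neg hoff hm (by linarith) hp (not_lt.1 h)

end Vale.Agent.Results.P154.ThreeState
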