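import Vale.Agent.P154.Final4
import Vale.Agent.P154.VXNA_2
import Vale.Agent.P154.VXNA_3
import Vale.Agent.P154.VXNA_4
import Vale.Agent.P154.VXNA_5
import Vale.Agent.P154.VXNB_2
import Vale.Agent.P154.VXNB_3

/-!
# The three-state Potts channel: the Kesten-Stigum threshold is the reconstruction threshold on all
ferromagnetic regular and Poisson trees, and on most antiferromagnetic ones
-/

namespace Vale.Agent.Results.P154.WideRange

open Vale.Agent.P154

/-- `q = 3`. The Kesten-Stigum threshold `d λ² = 1` is the reconstruction threshold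
* on the `d`-ary tree for every `d ≥ 2` when `λ ≥ 0`; for `d = 2`, `d = 3` and every `d ≥ 9` for
  both signs (in particular for proper `3`-colourings, `λ = -1/2`, of the binary and ternary tree);
  for `4 ≤ d ≤ 5` when `λ ≥ -2/5`; for `6 ≤ d ≤ 8` when `λ ≥ -1/3`;
* on the Poisson tree of mean `d` for every real `d > 0` when `λ ≥ 0`, and for every real `d ≥ 7`
  for both signs, and for every real `d > 0` when `λ ≥ -0.38`;
* on the Galton-Watson tree of any offspring law with finite second moment, if
  `-0.1562 ≤ λ ≤ 0.3536`. -/
theorem result (lam : ℝ) (h0 : -(1 / 2) ≤ lam) (h1 : lam ≤ 1) :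
    (∀ d : ℕ, 2 ≤ d →
      (0 ≤ lam ∨ d ≤ 3 ∨ 9 ≤ d ∨ (d ≤ 5 ∧ -(2 / 5) ≤ lam) ∨ -(1 / 3) ≤ lam) →
      (Reconstruction 3 lam (regular d) ↔ 1 < (d : ℝ) * lam ^ 2) ∧
      (Nonreconstruction 3 lam (regular d) ↔ (d : ℝ) * lam ^ 2 ≤ 1)) ∧
    (∀ d : ℝ, 0 < d → (0 ≤ lam ∨ 7 ≤ d ∨ -(19 / 50) ≤ lam) →
      (Reconstruction 3 lam (poisson d) ↔ 1 < d * lam ^ 2) ∧
      (Nonreconstruction 3 lam (poisson d) ↔ d * lam ^ 2 ≤ 1)) ∧
    (-(1562 / 10000) ≤ lam → lam ≤ 3536 / 10000 →
      ∀ off : ℕ → ℝ, (∀ k, 0 ≤ off k) → HasSum off 1 →
      ∀ m : ℝ, HasSum (fun k : ℕ => off k * k) m →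
        Summable (fun k : ℕ => off k * (k : ℝ) ^ 2) →
        (Reconstruction 3 lam off ↔ 1 < m * lam ^ 2) ∧
        (Nonreconstruction 3 lam off ↔ m * lam ^ 2 ≤ 1)) := by
  refine ⟨fun d hd hs => ?_, fun d hd hs => ?_, fun hl hL off hn hsum m hm h2 => ?_⟩
  · have key := dichotomy (q := 3) (lam := lam) (off := regular d) (P := 1 < (d : ℝ) * lam ^ 2)
      (fun h => reconstruction_regular (by norm_num) (by norm_num; linarith) h1 h)
      (fun h => ?_)
    · rw [not_lt] at key; exact key
    · have hdl := not_lt.1 h
      rcases le_total 0 lam with hp | hp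
      · exact reg_nonneg hd hp hdl
      rcases le_total (-(1 / 3)) lam with h3 | h3
      · exact reg_neg33 h3 hp hdl
      rcases le_total (-(2 / 5)) lam with h4 | h4
      · rcases hs with hs | hs | hs | hs | hs
        · exact reg_nonneg hd hs hdl
        · interval_cases d
          · exact reg_NA_2 (by linarith) (by linarith) (by exact_mod_cast hdl)
          · exact reg_NA_3 (by linarith) (by linarith) (by exact_mod_cast hdl)
        · have hd' : (9 : ℝ) ≤ d := by exact_mod_cast hs
          exact reg_neg33 (lam_ge_of (by norm_num) (by linarith) hdl) hp hdl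
        · have hd5 := hs.1
          interval_cases d
          · exact reg_NA_2 (by linarith) (by linarith) (by exact_mod_cast hdl)
          · exact reg_NA_3 (by linarith) (by linarith) (by exact_mod_cast hdl)
          · exact reg_NA_4 (by linarith) (by linarith) (by exact_mod_cast hdl)
          · exact reg_NA_5 (by linarith) (by linarith) (by exact_mod_cast hdl)
        · exact reg_neg33 hs hp hdl
      · rcases hs with hs | hs | hs | hs | hs
        · exact reg_nonneg hd hs hdl
        · interval_cases d
          · exact reg_NB_2 (by linarith) (by linarith) (by exact_mod_cast hdl)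
          · exact reg_NB_3 (by linarith) (by linarith) (by exact_mod_cast hdl)
        · have hd' : (9 : ℝ) ≤ d := by exact_mod_cast hs
          exact reg_neg33 (lam_ge_of (by norm_num) (by linarith) hdl) hp hdl
        · have hl : lam = -(2 / 5) := le_antisymm h4 hs.2
          have hd5 := hs.1
          interval_cases d
          · exact reg_NA_2 (by linarith) (by linarith) (by exact_mod_cast hdl)
          · exact reg_NA_3 (by linarith) (by linarith) (by exact_mod_cast hdl)
          · exact reg_NA_4 (by linarith) (by linarith) (by exact_mod_cast hdl)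
          · exact reg_NA_5 (by linarith) (by linarith) (by exact_mod_cast hdl)
        · exact reg_neg33 hs hp hdl
  · have key := dichotomy (q := 3) (lam := lam) (off := poisson d) (P := 1 < d * lam ^ 2)
      (fun h => reconstruction_poisson (by norm_num) (by linarith) (by norm_num; linarith) h1 h)
      (fun h => ?_)
    · rw [not_lt] at key; exact key
    · have hdl := not_lt.1 h
      rcases le_total 0 lam with hp | hp
      · exact pois_nonneg hp h1 hd.le hdl
      rcases hs with hs | hs | hs
      · exact pois_nonneg hs h1 hd.le hdl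
      · exact pois_neg38 (lam_ge_of (by norm_num) (by linarith) hdl) hp hd.le hdl
      · exact pois_neg38 hs hp hd.le hdl
  · have hoff : IsOff off := ⟨hn, hsum⟩
    have key := dichotomy (q := 3) (lam := lam) (off := off) (P := 1 < m * lam ^ 2)
      (fun h => ?_) (fun h => ?_)
    · rw [not_lt] at key; exact key
    · have h3 : Summable (fun k : ℕ => off k * ((k : ℝ) * (k - 1))) := by
        have := h2.sub hm.summable
        refine this.congr (fun k => ?_)
        ring
      exact reconstruction_of_lt (by norm_num) (by norm_num; linarith) h1 hoff hm h3.hasSum h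
    · rcases le_total 0 lam with hp | hp
      · exact nonrec_GW hoff hm hp (by linarith) (not_lt.1 h)
      · exact nonrec_GW_neg hoff hm (by linarith) hp (not_lt.1 h)

end Vale.Agent.Results.P154.WideRange
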